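import Vale.Agent.P328c.Main
import Vale.Agent.P328.Acc

/-! # P328: sampling and counting contingency tables, `K + 1` arbitrary rows and small rows -/

namespace Vale.Agent.Results.P328.FixedLargeRows

open Vale.Agent.P328c

theorem comps_card (n s : ℕ) : (comps n s).card = (n + s - 1).choose s := by
  have h : comps n s = Vale.Agent.P328.rows n s := by
    ext x
    rw [mem_comps, Vale.Agent.P328.mem_rows]
  rw [h, Vale.Agent.P328.rows_card]

theorem result {K m n : ℕ} (hK : 1 ≤ K) (ρ : Fin (K + 1) → ℕ) (σ : Fin m → ℕ) (c : Fin n → ℕ)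
    (h : ∑ i, ρ i + ∑ k, σ k = ∑ j, c j) (hmax : ∀ w, ρ w ≤ ρ (Fin.last K))
    (Q : ℝ) (hQ : 1 ≤ Q)
    (hR : 2 * (K : ℝ) ^ 2 * (((∑ k, σ k : ℕ) : ℝ) / n * ∑ j, 1 / ((c j : ℝ) + 1)) ≤ 1 - 1 / Q) :
    Set.BijOn merge
      (accepted ρ σ c : Set ((Fin (K + 1) → Fin n → ℕ) × (Fin m → Fin n → ℕ)))
      (tables (Sum.elim ρ σ) c : Set (Fin (K + 1) ⊕ Fin m → Fin n → ℕ)) ∧
    (proposals ρ σ c).card = (tables (enlarge ρ (∑ k, σ k)) c).card *
      ∏ k : Fin m, (n + σ k - 1).choose (σ k) ∧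
    ((proposals ρ σ c).card : ℝ) ≤ Q * ((tables (Sum.elim ρ σ) c).card : ℝ) ∧
    (∀ T : ℕ, (((Fintype.piFinset (fun _ : Fin T => proposals ρ σ c)).filter
      (fun ω => ∀ t, ω t ∉ accepted ρ σ c)).card : ℝ) ≤
        (1 - 1 / Q) ^ T * ((proposals ρ σ c).card : ℝ) ^ T) ∧
    (∀ ε δ : ℝ, 0 < ε → ε < 1 → 0 < δ → δ < 1 → ∀ T : ℕ,
      Q ^ 2 * Real.log (2 / δ) / (2 * ε ^ 2) ≤ (T : ℝ) → Accurate ρ σ c T ε δ) := by
  classical
  have hQ0 : 0 < Q := by linarith
  have hbij := merge_bijOn ρ σ c h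
  have hcard : (tables (Sum.elim ρ σ) c).card = (accepted ρ σ c).card := by
    have h1 := Set.BijOn.image_eq hbij
    have h2 : (accepted ρ σ c).image merge = tables (Sum.elim ρ σ) c := by
      rw [← Finset.coe_inj, Finset.coe_image]
      exact h1
    rw [← h2]
    exact Finset.card_image_of_injOn hbij.injOn
  have hsub : accepted ρ σ c ⊆ proposals ρ σ c := Finset.filter_subset _ _
  have hge := accepted_ge hK ρ σ c hmax
  have hratio : 1 / Q * ((proposals ρ σ c).card : ℝ) ≤ ((accepted ρ σ c).card : ℝ) := by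
    refine le_trans ?_ hge
    refine mul_le_mul_of_nonneg_right ?_ (Nat.cast_nonneg _)
    linarith
  have hratio' : ((proposals ρ σ c).card : ℝ) ≤ Q * ((accepted ρ σ c).card : ℝ) := by
    have h3 := mul_le_mul_of_nonneg_left hratio hQ0.le
    rwa [← mul_assoc, mul_one_div_cancel hQ0.ne', one_mul] at h3
  refine ⟨hbij, ?_, ?_, fun T => ?_, fun ε δ hε _ hδ hδ1 T hT => ?_⟩
  · unfold proposals
    rw [Finset.card_product, Fintype.card_piFinset]
    refine congrArg _ (Finset.prod_congr rfl fun k _ => comps_card n _)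
  · rw [hcard]
    exact hratio'
  · have h1 : (Fintype.piFinset (fun _ : Fin T => proposals ρ σ c)).filter
        (fun ω => ∀ t, ω t ∉ accepted ρ σ c) =
        Fintype.piFinset (fun _ : Fin T => proposals ρ σ c \ accepted ρ σ c) := by
      ext ω
      simp only [Finset.mem_filter, Fintype.mem_piFinset, Finset.mem_sdiff]
      exact forall_and.symm
    rw [h1, Fintype.card_piFinset, Finset.prod_const, Finset.card_univ, Fintype.card_fin,
      ← mul_pow]
    push_cast
    refine pow_le_pow_left₀ (Nat.cast_nonneg _) ?_ T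
    rw [Finset.card_sdiff_of_subset hsub, Nat.cast_sub (Finset.card_le_card hsub)]
    linarith
  · unfold Accurate
    rw [hcard]
    exact Vale.Agent.P328.accurate_gen (proposals ρ σ c) (accepted ρ σ c) hsub Q hQ hratio' ε δ hε
      hδ hδ1 T hT

end Vale.Agent.Results.P328.FixedLargeRows
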