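import Vale.Agent.P328.Acc

/-! # P328: sampling and counting contingency tables with one large row -/

namespace Vale.Agent.Results.P328.OneLargeRow

open Vale.Agent.P328

theorem result {m n : ℕ} (hn : 0 < n) (r : Fin (m + 1) → ℕ) (c : Fin n → ℕ)
    (h : ∑ i, r i = ∑ j, c j) (hc : LargeLastRow r c) :
    Set.BijOn (fill c) (accepted r c : Set (Fin m → Fin n → ℕ)) (Tables r c) ∧
    (samples r n).card = ∏ i : Fin m, (n + r i.castSucc - 1).choose (r i.castSucc) ∧
    (samples r n).card ≤ 2 * (Tables r c).ncard ∧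
    (∀ T : ℕ, 2 ^ T * ((Fintype.piFinset (fun _ : Fin T => samples r n)).filter
      (fun ω => ∀ t, ω t ∉ accepted r c)).card ≤ (samples r n).card ^ T) ∧
    (∀ ε δ : ℝ, 0 < ε → ε < 1 → 0 < δ → δ < 1 → ∀ T : ℕ,
      2 * Real.log (2 / δ) / ε ^ 2 ≤ (T : ℝ) → Accurate r c T ε δ) := by
  classical
  have hhalf := half hn r c hc
  have hcard := card_tables r c h
  have hsub : accepted r c ⊆ samples r n := Finset.filter_subset _ _
  refine ⟨bijOn r c h, ?_, ?_, fun T => ?_, fun ε δ hε _ hδ hδ1 T hT => ?_⟩
  · rw [samples, Fintype.card_piFinset]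
    exact Finset.prod_congr rfl fun i _ => rows_card n _
  · rw [hcard]
    exact hhalf
  · have h1 : (Fintype.piFinset (fun _ : Fin T => samples r n)).filter
        (fun ω => ∀ t, ω t ∉ accepted r c) =
        Fintype.piFinset (fun _ : Fin T => samples r n \ accepted r c) := by
      ext ω
      simp only [Finset.mem_filter, Fintype.mem_piFinset, Finset.mem_sdiff]
      exact forall_and.symm
    rw [h1, Fintype.card_piFinset, Finset.prod_const, Finset.card_univ, Fintype.card_fin,
      ← mul_pow]
    refine Nat.pow_le_pow_left ?_ T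
    rw [Finset.card_sdiff_of_subset hsub]
    omega
  · unfold Accurate
    rw [hcard]
    refine accurate_gen (samples r n) (accepted r c) hsub 2 (by norm_num)
      (by exact_mod_cast hhalf) ε δ hε hδ hδ1 T ?_
    refine le_trans (le_of_eq ?_) hT
    field_simp

end Vale.Agent.Results.P328.OneLargeRow
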