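import Vale.Agent.P328b.Main
import Vale.Agent.P328.Acc

/-! # P328: sampling and counting contingency tables with two arbitrary large rows -/

namespace Vale.Agent.Results.P328.TwoLargeRows

open Vale.Agent.P328b

theorem comps_card (n s : ℕ) : (comps n s).card = (n + s - 1).choose s := by
  have h : comps n s = Vale.Agent.P328.rows n s := by
    ext x
    rw [mem_comps, Vale.Agent.P328.mem_rows]
  rw [h, Vale.Agent.P328.rows_card]

theorem result {m n : ℕ} (r : Fin (m + 2) → ℕ) (c : Fin n → ℕ) (h : ∑ i, r i = ∑ j, c j)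
    (h01 : r 0 ≤ r 1) (Q : ℝ) (hQ : 1 ≤ Q)
    (hR : ((∑ k : Fin m, r k.succ.succ : ℕ) : ℝ) / n * ∑ j, 1 / ((c j : ℝ) + 1) ≤ 1 - 1 / Q) :
    Set.BijOn merge (accepted r c : Set ((Fin 2 → Fin n → ℕ) × (Fin m → Fin n → ℕ)))
      (tables r c : Set (Fin (m + 2) → Fin n → ℕ)) ∧
    (proposals r c).card = (tables ![r 0, r 1 + ∑ k : Fin m, r k.succ.succ] c).card *
      ∏ k : Fin m, (n + r k.succ.succ - 1).choose (r k.succ.succ) ∧
    ((proposals r c).card : ℝ) ≤ Q * ((tables r c).card : ℝ) ∧
    (∀ T : ℕ, (((Fintype.piFinset (fun _ : Fin T => proposals r c)).filter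
      (fun ω => ∀ t, ω t ∉ accepted r c)).card : ℝ) ≤
        (1 - 1 / Q) ^ T * ((proposals r c).card : ℝ) ^ T) ∧
    (∀ ε δ : ℝ, 0 < ε → ε < 1 → 0 < δ → δ < 1 → ∀ T : ℕ,
      Q ^ 2 * Real.log (2 / δ) / (2 * ε ^ 2) ≤ (T : ℝ) → Accurate r c T ε δ) := by
  classical
  have hQ0 : 0 < Q := by linarith
  have hbij := merge_bijOn r c h
  have hcard : (tables r c).card = (accepted r c).card := by
    have h1 := Set.BijOn.image_eq hbij
    have h2 : (accepted r c).image merge = tables r c := by
      rw [← Finset.coe_inj, Finset.coe_image]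
      exact h1
    rw [← h2]
    exact Finset.card_image_of_injOn hbij.injOn
  have hsub : accepted r c ⊆ proposals r c := Finset.filter_subset _ _
  have hge := accepted_ge r c h h01
  have hratio : 1 / Q * ((proposals r c).card : ℝ) ≤ ((accepted r c).card : ℝ) := by
    refine le_trans ?_ hge
    refine mul_le_mul_of_nonneg_right ?_ (Nat.cast_nonneg _)
    linarith
  have hratio' : ((proposals r c).card : ℝ) ≤ Q * ((accepted r c).card : ℝ) := by
    have h3 := mul_le_mul_of_nonneg_left hratio hQ0.le
    rwa [← mul_assoc, mul_one_div_cancel hQ0.ne', one_mul] at h3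
  refine ⟨hbij, ?_, ?_, fun T => ?_, fun ε δ hε _ hδ hδ1 T hT => ?_⟩
  · unfold proposals
    rw [Finset.card_product, Fintype.card_piFinset]
    refine congrArg _ (Finset.prod_congr rfl fun k _ => comps_card n _)
  · rw [hcard]
    exact hratio'
  · have h1 : (Fintype.piFinset (fun _ : Fin T => proposals r c)).filter
        (fun ω => ∀ t, ω t ∉ accepted r c) =
        Fintype.piFinset (fun _ : Fin T => proposals r c \ accepted r c) := by
      ext ω
      simp only [Finset.mem_filter, Fintype.mem_piFinset, Finset.mem_sdiff]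
      exact forall_and.symm
    rw [h1, Fintype.card_piFinset, Finset.prod_const, Finset.card_univ, Fintype.card_fin,
      ← mul_pow]
    push_cast
    refine pow_le_pow_left₀ (Nat.cast_nonneg _) ?_ T
    rw [Finset.card_sdiff_of_subset hsub, Nat.cast_sub (Finset.card_le_card hsub)]
    linarith
  · unfold Accurate
    rw [hcard]
    exact Vale.Agent.P328.accurate_gen (proposals r c) (accepted r c) hsub Q hQ hratio' ε δ hε hδ
      hδ1 T hT

end Vale.Agent.Results.P328.TwoLargeRows
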